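import Vale.Agent.H76.Space

/-!
# Weighted Fubini along a direction and the covering sum with a weight `1 - κ 1_N`

General-body project for P243.  `K` is a compact set of a Euclidean space, `N ⊆ K` a compact
subset, `0 ≤ κ ≤ 1`.  If on every line of direction `u` the length of the `K`-section is at most
`F + κ * (length of the N-section)`, then the weighted volume
`vol ((K \ N) ∩ C) + (1 - κ) vol (N ∩ C)` of the cylinder `C` over a measurable base `B ⊆ u^⊥` is
at most `F * area B` (`weighted_chord_fubini`).  Summing over a covering by cylinders gives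
`weighted_covering_sum`, the last step of the general-body argument.
-/

open MeasureTheory Set Module
open scoped ENNReal

set_option linter.unusedSectionVars false

namespace Vale.Agent.H9.GenK

/-- Weighted Fubini in a product `X × ℝ`. -/
theorem wfubini_prod {X : Type*} [MeasurableSpace X] (ν : Measure X) [SFinite ν]
    {T N : Set (X × ℝ)} (hT : MeasurableSet T) (hN : MeasurableSet N) (hNT : N ⊆ T)
    {κ F : ℝ} (hκ0 : 0 ≤ κ) (hκ1 : κ ≤ 1)
    (hfin : ∀ x, volume (Prod.mk x ⁻¹' N) ≠ ⊤)
    (hline : ∀ x, volume (Prod.mk x ⁻¹' T) ≤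
      ENNReal.ofReal F + ENNReal.ofReal κ * volume (Prod.mk x ⁻¹' N))
    {B : Set X} (hB : MeasurableSet B) :
    (ν.prod volume) ((T \ N) ∩ B ×ˢ univ) +
        ENNReal.ofReal (1 - κ) * (ν.prod volume) (N ∩ B ×ˢ univ) ≤
      ENNReal.ofReal F * ν B := by
  have hBu : MeasurableSet (B ×ˢ (univ : Set ℝ)) := hB.prod MeasurableSet.univ
  have key : ∀ S : Set (X × ℝ), MeasurableSet S →
      (ν.prod volume) (S ∩ B ×ˢ univ) = ∫⁻ x in B, volume (Prod.mk x ⁻¹' S) ∂ν := by
    intro S hS
    rw [Measure.prod_apply (hS.inter hBu), ← lintegral_indicator hB]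
    congr 1
    ext x
    by_cases hx : x ∈ B
    · rw [indicator_of_mem hx]
      congr 1
      ext y
      simp [hx]
    · rw [indicator_of_notMem hx]
      have hempty : Prod.mk x ⁻¹' (S ∩ B ×ˢ univ) = ∅ := by
        ext y
        simp [hx]
      rw [hempty, measure_empty]
  have hm1 : Measurable fun x => volume (Prod.mk x ⁻¹' (T \ N)) :=
    measurable_measure_prodMk_left (hT.diff hN)
  have hm2 : Measurable fun x => volume (Prod.mk x ⁻¹' N) :=
    measurable_measure_prodMk_left hN
  rw [key _ (hT.diff hN), key _ hN, ← lintegral_const_mul _ hm2, ← lintegral_add_left hm1]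
  have hpt : ∀ x, volume (Prod.mk x ⁻¹' (T \ N)) +
      ENNReal.ofReal (1 - κ) * volume (Prod.mk x ⁻¹' N) ≤ ENNReal.ofReal F := by
    intro x
    have hsN : MeasurableSet (Prod.mk x ⁻¹' N) := measurable_prodMk_left hN
    have hsplit : volume (Prod.mk x ⁻¹' T) =
        volume (Prod.mk x ⁻¹' (T \ N)) + volume (Prod.mk x ⁻¹' N) := by
      have hsub : Prod.mk x ⁻¹' N ⊆ Prod.mk x ⁻¹' T := preimage_mono hNT
      rw [preimage_sdiff, ← measure_sdiff_add_inter (Prod.mk x ⁻¹' T) hsN,
        inter_eq_self_of_subset_right hsub]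
    have hone : ENNReal.ofReal (1 - κ) + ENNReal.ofReal κ = 1 := by
      rw [← ENNReal.ofReal_add (by linarith) hκ0]
      simp
    have h1 := hline x
    rw [hsplit] at h1
    have h2 : volume (Prod.mk x ⁻¹' (T \ N)) +
        ENNReal.ofReal (1 - κ) * volume (Prod.mk x ⁻¹' N) +
        ENNReal.ofReal κ * volume (Prod.mk x ⁻¹' N) ≤
        ENNReal.ofReal F + ENNReal.ofReal κ * volume (Prod.mk x ⁻¹' N) := by
      calc volume (Prod.mk x ⁻¹' (T \ N)) +
            ENNReal.ofReal (1 - κ) * volume (Prod.mk x ⁻¹' N) +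
            ENNReal.ofReal κ * volume (Prod.mk x ⁻¹' N)
          = volume (Prod.mk x ⁻¹' (T \ N)) +
            (ENNReal.ofReal (1 - κ) + ENNReal.ofReal κ) * volume (Prod.mk x ⁻¹' N) := by
            rw [add_mul, add_assoc]
        _ = volume (Prod.mk x ⁻¹' (T \ N)) + volume (Prod.mk x ⁻¹' N) := by
            rw [hone, one_mul]
        _ ≤ _ := h1
    exact (ENNReal.add_le_add_iff_right
      (ENNReal.mul_ne_top ENNReal.ofReal_ne_top (hfin x))).1 h2
  calc ∫⁻ x in B, (volume (Prod.mk x ⁻¹' (T \ N)) +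
        ENNReal.ofReal (1 - κ) * volume (Prod.mk x ⁻¹' N)) ∂ν
      ≤ ∫⁻ _ in B, ENNReal.ofReal F ∂ν := lintegral_mono fun x => hpt x
    _ = ENNReal.ofReal F * ν B := by rw [setLIntegral_const]

variable {E : Type*} [NormedAddCommGroup E] [InnerProductSpace ℝ E] [FiniteDimensional ℝ E]
  [MeasurableSpace E] [BorelSpace E]

theorem wf_symm (u : E) (hu : ‖u‖ = 1) (b : ↥(Submodule.span ℝ {u})ᗮ) (t : ℝ) :
    (Vale.Agent.H76.splitEquiv u hu).symm (b, t) = (b : E) + t • u := by
  simp [Vale.Agent.H76.splitEquiv, add_comm]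

/-- Sections of the image under the splitting are the sections along `u`. -/
theorem wf_section (u : E) (hu : ‖u‖ = 1) (S : Set E) (b : ↥(Submodule.span ℝ {u})ᗮ) :
    Prod.mk b ⁻¹' (Vale.Agent.H76.splitEquiv u hu '' S) = {t : ℝ | (b : E) + t • u ∈ S} := by
  ext t
  simp only [mem_preimage, mem_ofPred_eq]
  rw [← wf_symm u hu b t]
  constructor
  · rintro ⟨x, hx, hxe⟩
    rw [← hxe, ContinuousLinearEquiv.symm_apply_apply]
    exact hx
  · intro h
    exact ⟨_, h, ContinuousLinearEquiv.apply_symm_apply _ _⟩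

/-- Transfer of the volume of the part of a measurable set inside a cylinder. -/
theorem wf_transfer (u : E) (hu : ‖u‖ = 1) {S : Set E} (hS : MeasurableSet S)
    {B : Set ↥(Submodule.span ℝ {u})ᗮ} (hB : MeasurableSet B) :
    (volume.prod volume) (Vale.Agent.H76.splitEquiv u hu '' S ∩ B ×ˢ univ) =
      volume (S ∩ (Submodule.span ℝ {u})ᗮ.orthogonalProjectionOnto ⁻¹' B) := by
  set Ψ := Vale.Agent.H76.splitEquiv u hu with hΨ
  have hmp := Vale.Agent.H76.splitEquiv_measurePreserving u hu
  have hSm : MeasurableSet (Ψ '' S) := by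
    have : Ψ '' S = Ψ.symm ⁻¹' S := by
      ext p
      constructor
      · rintro ⟨x, hx, rfl⟩
        simpa using hx
      · intro h
        exact ⟨Ψ.symm p, h, by simp⟩
    rw [this]
    exact Ψ.symm.continuous.measurable hS
  rw [← hmp.measure_preimage (hSm.inter (hB.prod MeasurableSet.univ)).nullMeasurableSet]
  congr 1
  ext x
  constructor
  · rintro ⟨⟨y, hy, hxy⟩, hxB⟩
    have hyx : y = x := Ψ.injective hxy
    subst hyx
    refine ⟨hy, ?_⟩
    have : (Ψ y).1 ∈ B := hxB.1
    rw [Vale.Agent.H76.splitEquiv_fst] at this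
    exact this
  · rintro ⟨hxK, hxB⟩
    refine ⟨⟨x, hxK, rfl⟩, ?_, mem_univ _⟩
    show (Ψ x).1 ∈ B
    rw [Vale.Agent.H76.splitEquiv_fst]
    exact hxB

/-- **Weighted chord Fubini.** If on every line of direction `u` the section of `K` has length
at most `F + κ * (length of the section of N)`, then the cylinder over a measurable base `B`
carries weighted volume at most `F * area B`. -/
theorem weighted_chord_fubini (u : E) (hu : ‖u‖ = 1) {K N : Set E}
    (hK : IsCompact K) (hN : IsCompact N) (hNK : N ⊆ K) {κ F : ℝ} (hκ0 : 0 ≤ κ) (hκ1 : κ ≤ 1)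
    (hline : ∀ b : ↥(Submodule.span ℝ {u})ᗮ, volume {t : ℝ | (b : E) + t • u ∈ K} ≤
      ENNReal.ofReal F + ENNReal.ofReal κ * volume {t : ℝ | (b : E) + t • u ∈ N})
    {B : Set ↥(Submodule.span ℝ {u})ᗮ} (hB : MeasurableSet B) :
    volume ((K \ N) ∩ (Submodule.span ℝ {u})ᗮ.orthogonalProjectionOnto ⁻¹' B) +
        ENNReal.ofReal (1 - κ) *
          volume (N ∩ (Submodule.span ℝ {u})ᗮ.orthogonalProjectionOnto ⁻¹' B) ≤
      ENNReal.ofReal F * volume B := by
  set Ψ := Vale.Agent.H76.splitEquiv u hu with hΨ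
  have hKm : MeasurableSet K := hK.isClosed.measurableSet
  have hNm : MeasurableSet N := hN.isClosed.measurableSet
  have hTc : IsCompact (Ψ '' K) := hK.image Ψ.continuous
  have hN'c : IsCompact (Ψ '' N) := hN.image Ψ.continuous
  have hfin : ∀ b : ↥(Submodule.span ℝ {u})ᗮ, volume (Prod.mk b ⁻¹' (Ψ '' N)) ≠ ⊤ := by
    intro b
    have hc : IsCompact (Prod.mk b ⁻¹' (Ψ '' N)) := by
      have hcl : IsClosed (Prod.mk b ⁻¹' (Ψ '' N)) :=
        hN'c.isClosed.preimage (Continuous.prodMk_right b)
      have hsub : Prod.mk b ⁻¹' (Ψ '' N) ⊆ Prod.snd '' (Ψ '' N) := by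
        intro t ht
        exact ⟨(b, t), ht, rfl⟩
      exact (hN'c.image continuous_snd).of_isClosed_subset hcl hsub
    exact hc.measure_lt_top.ne
  have h := wfubini_prod (volume : Measure ↥(Submodule.span ℝ {u})ᗮ)
    hTc.isClosed.measurableSet hN'c.isClosed.measurableSet (image_mono hNK) hκ0 hκ1 hfin
    (by
      intro b
      rw [wf_section u hu K b, wf_section u hu N b]
      exact hline b) hB
  rw [← image_sdiff Ψ.injective, wf_transfer u hu (hKm.diff hNm) hB, wf_transfer u hu hNm hB] at h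
  exact h

/-- **Covering sum with a weight.** The last step of the general-body argument: if `N ⊆ K` has
volume at most `a * vol K` and every line of every cylinder direction satisfies the weighted
chord bound with `F i * (shadow area) ≤ 3 θ vol K`, then the relative base areas of a covering
of `K` by cylinders sum to at least `(1 - κ a) / (3 θ)`. -/
theorem weighted_covering_sum {ι : Type*} [Fintype ι] (hE : finrank ℝ E = 3) {K N : Set E}
    (hK : IsCompact K) (hV : volume K ≠ 0) (hN : IsCompact N) (hNK : N ⊆ K)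
    {κ θ a : ℝ} (hκ0 : 0 ≤ κ) (hκ1 : κ ≤ 1) (hθ : 0 < θ) (ha : 0 ≤ a)
    (hNvol : volume N ≤ ENNReal.ofReal a * volume K)
    (u : ι → E) (hu : ∀ i, ‖u i‖ = 1) (B : ι → Set E)
    (hB : ∀ i, ∀ x ∈ B i, inner ℝ x (u i) = 0)
    (hcov : K ⊆ ⋃ i, {x | ∃ b ∈ B i, ∃ t : ℝ, x = b + t • u i})
    (F : ι → ℝ) (hF0 : ∀ i, 0 ≤ F i)
    (hF : ∀ i, F i * (volume ((Submodule.span ℝ {u i})ᗮ.orthogonalProjectionOnto '' K)).toReal ≤
      3 * θ * (volume K).toReal)
    (hline : ∀ i, ∀ b : ↥(Submodule.span ℝ {u i})ᗮ,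
      volume {t : ℝ | (b : E) + t • u i ∈ K} ≤
        ENNReal.ofReal (F i) + ENNReal.ofReal κ * volume {t : ℝ | (b : E) + t • u i ∈ N}) :
    ENNReal.ofReal ((1 - κ * a) / (3 * θ)) ≤ ∑ i, μHE[2] (B i) /
      μHE[2] ((fun x => x - inner ℝ x (u i) • u i) '' K) := by
  classical
  have hVfin : volume K ≠ ⊤ := hK.measure_lt_top.ne
  have hKm : MeasurableSet K := hK.isClosed.measurableSet
  have hNm : MeasurableSet N := hN.isClosed.measurableSet
  have hNfin : volume N ≠ ⊤ := hN.measure_lt_top.ne
  -- the bases inside the subspaces and their measurable hulls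
  have hB'm : ∀ i, MeasurableSet
      (toMeasurable volume (Subtype.val ⁻¹' B i : Set ↥(Submodule.span ℝ {u i})ᗮ)) :=
    fun i => measurableSet_toMeasurable _ _
  have hB'v : ∀ i, volume
      (toMeasurable volume (Subtype.val ⁻¹' B i : Set ↥(Submodule.span ℝ {u i})ᗮ)) =
      μHE[2] (B i) := by
    intro i
    rw [measure_toMeasurable, Vale.Agent.H76.hausdorff_base hE (u i) (hu i) (B i) (hB i)]
  have hS : ∀ i, μHE[2] ((fun x => x - inner ℝ x (u i) • u i) '' K) =
      volume ((Submodule.span ℝ {u i})ᗮ.orthogonalProjectionOnto '' K) :=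
    fun i => Vale.Agent.H76.hausdorff_shadow hE (u i) (hu i) K
  have hSfin : ∀ i, volume ((Submodule.span ℝ {u i})ᗮ.orthogonalProjectionOnto '' K) ≠ ⊤ :=
    fun i => (hK.image
      (Submodule.span ℝ {u i})ᗮ.orthogonalProjectionOnto.continuous).measure_lt_top.ne
  set R : ℝ≥0∞ := ∑ i, μHE[2] (B i) /
    μHE[2] ((fun x => x - inner ℝ x (u i) • u i) '' K) with hR
  -- abbreviations for the cylinders
  set C : ι → Set E := fun i => (Submodule.span ℝ {u i})ᗮ.orthogonalProjectionOnto ⁻¹'
    (toMeasurable volume (Subtype.val ⁻¹' B i : Set ↥(Submodule.span ℝ {u i})ᗮ)) with hC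
  have hcovK : K ⊆ ⋃ i, C i := by
    intro x hx
    obtain ⟨i, hi⟩ := mem_iUnion.1 (hcov hx)
    exact mem_iUnion.2 ⟨i, subset_toMeasurable _ _
      (Vale.Agent.H76.proj_mem_of_cyl (u i) (hu i) (B i) (hB i) x hi)⟩
  -- one cylinder
  have hper : ∀ i, volume ((K \ N) ∩ C i) + ENNReal.ofReal (1 - κ) * volume (N ∩ C i) ≤
      ENNReal.ofReal (3 * θ) * volume K * (μHE[2] (B i) /
        μHE[2] ((fun x => x - inner ℝ x (u i) • u i) '' K)) := by
    intro i
    have h := weighted_chord_fubini (u i) (hu i) hK hN hNK hκ0 hκ1 (hline i) (hB'm i)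
    rw [hB'v i] at h
    refine h.trans ?_
    rw [hS i]
    set S := volume ((Submodule.span ℝ {u i})ᗮ.orthogonalProjectionOnto '' K) with hSdef
    by_cases hS0 : S = 0
    · -- degenerate shadow: then `F i * 0 ≤ ...` gives nothing, but the quotient is infinite
      by_cases hb0 : μHE[2] (B i) = 0
      · rw [hb0]
        simp
      · rw [hS0, ENNReal.div_zero hb0, ENNReal.mul_top]
        · exact le_top
        · have h3 : ENNReal.ofReal (3 * θ) ≠ 0 := by
            rw [Ne, ENNReal.ofReal_eq_zero, not_le]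
            positivity
          exact mul_ne_zero h3 hV
    · have hFi : ENNReal.ofReal (F i) * S ≤ ENNReal.ofReal (3 * θ) * volume K := by
        have h1 := ENNReal.ofReal_le_ofReal (hF i)
        rw [ENNReal.ofReal_mul (hF0 i), ENNReal.ofReal_toReal (hSfin i),
          ENNReal.ofReal_mul (by positivity), ENNReal.ofReal_toReal hVfin] at h1
        exact h1
      calc ENNReal.ofReal (F i) * μHE[2] (B i)
          = ENNReal.ofReal (F i) * S * (μHE[2] (B i) / S) := by
            rw [mul_assoc, ENNReal.mul_div_cancel hS0 (hSfin i)]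
        _ ≤ ENNReal.ofReal (3 * θ) * volume K * (μHE[2] (B i) / S) := by
            gcongr
  -- summation
  have hsum1 : volume (K \ N) ≤ ∑ i, volume ((K \ N) ∩ C i) := by
    calc volume (K \ N) ≤ volume (⋃ i, (K \ N) ∩ C i) := by
          apply measure_mono
          intro x hx
          obtain ⟨i, hi⟩ := mem_iUnion.1 (hcovK hx.1)
          exact mem_iUnion.2 ⟨i, hx, hi⟩
      _ ≤ _ := measure_iUnion_fintype_le _ _
  have hsum2 : volume N ≤ ∑ i, volume (N ∩ C i) := by
    calc volume N ≤ volume (⋃ i, N ∩ C i) := by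
          apply measure_mono
          intro x hx
          obtain ⟨i, hi⟩ := mem_iUnion.1 (hcovK (hNK hx))
          exact mem_iUnion.2 ⟨i, hx, hi⟩
      _ ≤ _ := measure_iUnion_fintype_le _ _
  have hsum : volume (K \ N) + ENNReal.ofReal (1 - κ) * volume N ≤
      ENNReal.ofReal (3 * θ) * volume K * R := by
    calc volume (K \ N) + ENNReal.ofReal (1 - κ) * volume N
        ≤ ∑ i, volume ((K \ N) ∩ C i) + ENNReal.ofReal (1 - κ) * ∑ i, volume (N ∩ C i) := by
          gcongr
      _ = ∑ i, (volume ((K \ N) ∩ C i) + ENNReal.ofReal (1 - κ) * volume (N ∩ C i)) := by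
          rw [Finset.mul_sum, Finset.sum_add_distrib]
      _ ≤ ∑ i, ENNReal.ofReal (3 * θ) * volume K * (μHE[2] (B i) /
            μHE[2] ((fun x => x - inner ℝ x (u i) • u i) '' K)) :=
          Finset.sum_le_sum fun i _ => hper i
      _ = _ := by rw [Finset.mul_sum]
  -- the weighted volume is at least `(1 - κ a) vol K`
  have hlow : ENNReal.ofReal (1 - κ * a) * volume K ≤
      volume (K \ N) + ENNReal.ofReal (1 - κ) * volume N := by
    have hsplit : volume K = volume (K \ N) + volume N := by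
      rw [← measure_sdiff_add_inter K hNm, inter_eq_self_of_subset_right hNK]
    have hNr : (volume N).toReal ≤ a * (volume K).toReal := by
      have := ENNReal.toReal_mono (ENNReal.mul_ne_top ENNReal.ofReal_ne_top hVfin) hNvol
      rwa [ENNReal.toReal_mul, ENNReal.toReal_ofReal ha] at this
    have hdfin : volume (K \ N) ≠ ⊤ := (measure_mono sdiff_subset).trans_lt hK.measure_lt_top |>.ne
    have hKr : (volume K).toReal = (volume (K \ N)).toReal + (volume N).toReal := by
      rw [hsplit, ENNReal.toReal_add hdfin hNfin]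
    have hVnn : 0 ≤ (volume K).toReal := ENNReal.toReal_nonneg
    have hNnn : 0 ≤ (volume N).toReal := ENNReal.toReal_nonneg
    have hdnn : 0 ≤ (volume (K \ N)).toReal := ENNReal.toReal_nonneg
    have e1 : volume (K \ N) + ENNReal.ofReal (1 - κ) * volume N =
        ENNReal.ofReal ((volume (K \ N)).toReal + (1 - κ) * (volume N).toReal) := by
      rw [ENNReal.ofReal_add hdnn (mul_nonneg (by linarith) hNnn),
        ENNReal.ofReal_mul (by linarith), ENNReal.ofReal_toReal hdfin,
        ENNReal.ofReal_toReal hNfin]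
    rw [e1]
    by_cases hneg : 1 - κ * a ≤ 0
    · rw [ENNReal.ofReal_of_nonpos hneg, zero_mul]
      exact zero_le
    · have e2 : ENNReal.ofReal (1 - κ * a) * volume K =
          ENNReal.ofReal ((1 - κ * a) * (volume K).toReal) := by
        rw [ENNReal.ofReal_mul (by linarith), ENNReal.ofReal_toReal hVfin]
      rw [e2]
      apply ENNReal.ofReal_le_ofReal
      nlinarith [mul_le_mul_of_nonneg_left hNr hκ0]
  have hmain : volume K * ENNReal.ofReal (1 - κ * a) ≤
      volume K * (ENNReal.ofReal (3 * θ) * R) := by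
    calc volume K * ENNReal.ofReal (1 - κ * a) = ENNReal.ofReal (1 - κ * a) * volume K :=
          mul_comm _ _
      _ ≤ volume (K \ N) + ENNReal.ofReal (1 - κ) * volume N := hlow
      _ ≤ ENNReal.ofReal (3 * θ) * volume K * R := hsum
      _ = volume K * (ENNReal.ofReal (3 * θ) * R) := by ring
  have hone : ENNReal.ofReal (1 - κ * a) ≤ ENNReal.ofReal (3 * θ) * R :=
    (ENNReal.mul_le_mul_iff_right hV hVfin).1 hmain
  by_cases hRtop : R = ⊤
  · rw [hRtop]
    exact le_top
  · have hRr : R = ENNReal.ofReal R.toReal := (ENNReal.ofReal_toReal hRtop).symm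
    have hr0 : 0 ≤ R.toReal := ENNReal.toReal_nonneg
    rw [hRr]
    rw [hRr, ← ENNReal.ofReal_mul (by positivity)] at hone
    apply ENNReal.ofReal_le_ofReal
    by_cases hneg : 1 - κ * a ≤ 0
    · exact (div_nonpos_of_nonpos_of_nonneg hneg (by positivity)).trans hr0
    · rw [ENNReal.ofReal_le_ofReal_iff (by positivity)] at hone
      rw [div_le_iff₀ (by positivity)]
      linarith

end Vale.Agent.H9.GenK
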